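import Vale.Agent.P139.R2.H628.Hom
import Vale.Agent.P139.R2.H940.Dyn

/-!
# P139: the class estimates in the form of row R6
-/

set_option autoImplicit false

open MvPolynomial Finset

namespace Vale.Agent.P139.BN

open Vale.Agent.P139.A Vale.Agent.P139.A.WA

/-- The algebra of the classes in the form used by the energy estimate. -/
theorem algThm (d : ℕ) : Vale.Agent.P139.R2.H940.AlgThm d := by
  intro ι _ _ J κ γ R θ S mo lev fr W pw hκ hM
  have hW0 : ∀ n, 0 ≤ W n := fun n => zero_le_one.trans (hM.one_le_W n)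
  have hpw0 : ∀ n, 0 ≤ pw n := fun n => zero_le_one.trans (hM.one_le_pw n)
  refine ⟨H628.cls_quad hM.one_le_W hM.one_le_pw, fun p q A F P Q hp hq hpq hA hF hP hQ => ?_⟩
  have h := H628.cls_br_DW hM.inj hκ hM.one_le_W hM.one_le_pw hM.W_mom hM.pw_mom
    (by omega : p + 1 ≤ J) hA hF hP hQ
  refine H628.cls_mono (H628.DW_nonneg hW0 hpw0 _) ?_ h
  push_cast
  have h0 : 0 ≤ ((p : ℝ) + 1) * (q + 1) * κ * A * F := by positivity
  nlinarith

end Vale.Agent.P139.BN
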