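import Vale.Agent.P139.R2.H628.InstN
import Vale.Agent.P139.R2.H628.InstD
import Vale.Agent.P139.R2.H923.Ev

/-!
# P139: the energy estimate (rows R2 - R6 together)
-/

set_option autoImplicit false

namespace Vale.Agent.P139.BN

/-- **The energy estimate** (row R6). -/
theorem dynThm (d : ℕ) : DynThm d :=
  Vale.Agent.P139.R2.H940.dynThm (nfThm d) (Vale.Agent.P139.R2.H923.evThm d) (algThm d)

end Vale.Agent.P139.BN
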