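import Vale.Agent.P139.R2.H556.Ham2

/-!
# P139, row R8b: the Bogoliubov transform of a solution of the Galerkin system
-/

set_option autoImplicit false

open Finset
open scoped ComplexConjugate

namespace Vale.Agent.P139.BN.H628

open Vale.Agent.P139.A Vale.Agent.P139.A.WA Vale.Agent.P139.BN.R7

variable {d k : ℕ} {B : Finset (Lat d)} (hB : ∀ n ∈ B, -n ∈ B)

/-- The Bogoliubov variable. -/
noncomputable def zb (μ : ℝ) (w : WA d k) (n : {n // n ∈ B}) : ℂ :=
  (bA μ n.1 : ℂ) * coef w n.1 - (bB μ n.1 : ℂ) * conj (coef w (-n.1))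

theorem conj_zb_ng (μ : ℝ) (w : WA d k) (n : {n // n ∈ B}) :
    conj (zb μ w (ng hB n)) = (bA μ n.1 : ℂ) * conj (coef w (-n.1)) - (bB μ n.1 : ℂ) * coef w n.1 := by
  unfold zb ng
  simp only [map_sub, map_mul, Complex.conj_ofReal, neg_neg, bA_neg, bB_neg, Complex.conj_conj]

/-- **(b1)** The inverse transform. -/
theorem inv_zb (h0 : (0 : Lat d) ∉ B) {μ : ℝ} (hμ : 0 ≤ μ) (w : WA d k) (n : {n // n ∈ B}) :
    (bA μ n.1 : ℂ) * zb μ w n + (bB μ n.1 : ℂ) * conj (zb μ w (ng hB n)) = coef w n.1 := by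
  have hn : n.1 ≠ 0 := fun h => h0 (h ▸ n.2)
  have h1 : (bA μ n.1 : ℂ) ^ 2 - (bB μ n.1 : ℂ) ^ 2 = 1 := by
    have := bA_sq_sub hμ hn
    exact_mod_cast this
  rw [conj_zb_ng]
  unfold zb
  linear_combination (coef w n.1) * h1

theorem coef_Nl {m : ℕ} {b : ℝ} {w : WA d k} {n : Lat d} (hn : n ≠ 0) :
    coef (Nl m (cst b + w)) n = -Complex.I * (coef (F m (cst b + w)) n -
      g m (cst b + w) * coef w n) := by
  unfold Nl
  rw [coef_add, coef_neg, coef_smul, coef_real_smul, coef_smul, coef_add, coef_cst, if_neg hn,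
    zero_add]
  ring

/-- **(b2)** The equation of the Bogoliubov variable. -/
theorem deriv_zb {m : ℕ} {c e T : ℝ} {w : ℝ → WA d k} (h0 : (0 : Lat d) ∉ B)
    (hw : GSol d k m c e B T w) (μ : ℝ) {t : ℝ} (ht : t ∈ Set.Icc 0 T) (hB : ∀ n ∈ B, -n ∈ B)
    {n : Lat d} (hn : n ∈ B) :
    HasDerivWithinAt (fun t => (bA μ n : ℂ) * coef (w t) n - (bB μ n : ℂ) * conj (coef (w t) (-n)))
      (-Complex.I * (sqNorm n * ((bA μ n : ℂ) * coef (w t) n + (bB μ n : ℂ) * conj (coef (w t) (-n))) +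
        (bA μ n : ℂ) * (coef (F m (cst (H836.bz c e (w t)) + w t)) n -
          g m (cst (H836.bz c e (w t)) + w t) * coef (w t) n) +
        (bB μ n : ℂ) * conj (coef (F m (cst (H836.bz c e (w t)) + w t)) (-n) -
          g m (cst (H836.bz c e (w t)) + w t) * coef (w t) (-n)))) (Set.Icc 0 T) t := by
  have hn0 : n ≠ 0 := fun h => h0 (h ▸ hn)
  have hm0 : -n ≠ 0 := neg_ne_zero.2 hn0
  have h1 := hw.eqn t ht n hn
  have h2 := (hw.eqn t ht (-n) (hB n hn)).star
  have h3 := (h1.const_mul (bA μ n : ℂ)).sub (h2.const_mul (bB μ n : ℂ))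
  refine h3.congr_deriv ?_
  rw [coef_Nl hn0, coef_Nl hm0, sqNorm_neg]
  simp only [star_add, star_mul', Complex.star_def, map_mul, map_neg, map_sub,
    Complex.conj_I, Complex.conj_ofReal, neg_neg]
  ring

end Vale.Agent.P139.BN.H628
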