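import Vale.Agent.P139.R2.H628.ClsAlg

/-!
# P139: the bracket on the classes (team P139-N, row R3)
-/

set_option autoImplicit false

open MvPolynomial Finset

namespace Vale.Agent.P139.BN

open Vale.Agent.P139.A Vale.Agent.P139.A.WA

namespace H628

variable {ι : Type} {d : ℕ}

/-- Insert a signed mode in a tuple. -/
def ins {p : ℕ} (l : Fin (p + 1)) (v : ι × Bool) (K : Fin p → ι × Bool) : Fin (p + 1) → ι × Bool :=
  Fin.insertNth (α := fun _ => ι × Bool) l v K

theorem ins_same {p : ℕ} (l : Fin (p + 1)) (v : ι × Bool) (K : Fin p → ι × Bool) :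
    ins l v K l = v := Fin.insertNth_apply_same _ _ _

theorem ins_succAbove {p : ℕ} (l : Fin (p + 1)) (v : ι × Bool) (K : Fin p → ι × Bool) (i : Fin p) :
    ins l v K (l.succAbove i) = K i := Fin.insertNth_apply_succAbove _ _ _ _

theorem sum_ins {M : Type*} [AddCommMonoid M] {p : ℕ} (l : Fin (p + 1)) (v : ι × Bool)
    (K : Fin p → ι × Bool) (f : ι × Bool → M) :
    ∑ i, f (ins l v K i) = f v + ∑ i, f (K i) := by
  rw [Fin.sum_univ_succAbove _ l, ins_same]
  simp only [ins_succAbove]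

theorem prod_ins {M : Type*} [CommMonoid M] {p : ℕ} (l : Fin (p + 1)) (v : ι × Bool)
    (K : Fin p → ι × Bool) (f : ι × Bool → M) :
    ∏ i, f (ins l v K i) = f v * ∏ i, f (K i) := by
  rw [Fin.prod_univ_succAbove _ l, ins_same]
  simp only [ins_succAbove]

theorem sum_eq_ins [Fintype ι] {M : Type*} [AddCommMonoid M] {p : ℕ} (l : Fin (p + 1))
    (f : (Fin (p + 1) → ι × Bool) → M) :
    ∑ I, f I = ∑ v : ι × Bool, ∑ K : Fin p → ι × Bool, f (ins l v K) := by
  classical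
  rw [← Fintype.sum_prod_type', ← (Fin.insertNthEquiv (fun _ => ι × Bool) l).sum_comp]
  rfl

/-- Product rule for a derivation and a product over `Fin (p + 1)`. -/
theorem der_prod {σ : Type*} {p : ℕ} (D : Derivation ℂ (MvPolynomial σ ℂ) (MvPolynomial σ ℂ))
    (f : Fin (p + 1) → MvPolynomial σ ℂ) :
    D (∏ l, f l) = ∑ l : Fin (p + 1), D (f l) * ∏ i : Fin p, f (l.succAbove i) := by
  induction p with
  | zero => simp
  | succ p ih =>
    rw [Fin.prod_univ_succ, D.leibniz, ih, Fin.sum_univ_succ (n := p + 1)]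
    simp only [smul_eq_mul, Fin.zero_succAbove]
    rw [Finset.mul_sum, add_comm, mul_comm]
    refine congrArg₂ (· + ·) rfl (Finset.sum_congr rfl fun l _ => ?_)
    rw [Fin.prod_univ_succ (n := p)]
    simp only [Fin.succ_succAbove_zero, Fin.succ_succAbove_succ]
    ring

theorem pderiv_mon {p : ℕ} [DecidableEq ι] (v : ι × Bool) (I : Fin (p + 1) → ι × Bool) :
    pderiv v (mon I) = ∑ l : Fin (p + 1), if I l = v then mon (fun i => I (l.succAbove i)) else 0 := by
  unfold mon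
  rw [der_prod]
  refine Finset.sum_congr rfl fun l _ => ?_
  rw [pderiv_X, Pi.single_apply]
  split_ifs
  · rw [one_mul]
  · rw [zero_mul]

/-- The tensor of a derivative. -/
noncomputable def da {p : ℕ} (a : (Fin (p + 1) → ι × Bool) → ℂ) (v : ι × Bool)
    (K : Fin p → ι × Bool) : ℂ := ∑ l : Fin (p + 1), a (ins l v K)

theorem mon_ins_succAbove {p : ℕ} (l : Fin (p + 1)) (v : ι × Bool) (K : Fin p → ι × Bool) :
    (mon fun i => ins l v K (l.succAbove i) : Pl ι) = mon K := by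
  unfold mon
  simp only [ins_succAbove]

theorem pderiv_sum_mon [Fintype ι] {p : ℕ} (a : (Fin (p + 1) → ι × Bool) → ℂ) (v : ι × Bool) :
    pderiv v (∑ I, C (a I) * mon I : Pl ι) = ∑ K, C (da a v K) * mon K := by
  classical
  rw [map_sum]
  have h1 : ∀ I : Fin (p + 1) → ι × Bool, pderiv v (C (a I) * mon I : Pl ι) =
      ∑ l : Fin (p + 1), if I l = v then C (a I) * mon (fun i => I (l.succAbove i)) else 0 := by
    intro I
    rw [pderiv_C_mul, pderiv_mon, Finset.mul_sum]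
    refine Finset.sum_congr rfl fun l _ => ?_
    rw [mul_ite, mul_zero]
  rw [Finset.sum_congr rfl fun I _ => h1 I, Finset.sum_comm]
  have h2 : ∀ l : Fin (p + 1), (∑ I : Fin (p + 1) → ι × Bool,
      (if I l = v then (C (a I) * mon (fun i => I (l.succAbove i)) : Pl ι) else 0)) =
      ∑ K : Fin p → ι × Bool, C (a (ins l v K)) * mon K := by
    intro l
    rw [sum_eq_ins l, Finset.sum_eq_single v]
    · refine Finset.sum_congr rfl fun K _ => ?_
      rw [if_pos (ins_same l v K), mon_ins_succAbove]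
    · intro w _ hw
      refine Finset.sum_eq_zero fun K _ => ?_
      rw [if_neg (by rw [ins_same]; exact hw)]
    · intro h
      exact absurd (Finset.mem_univ v) h
  rw [Finset.sum_congr rfl fun l _ => h2 l, Finset.sum_comm]
  refine Finset.sum_congr rfl fun K _ => ?_
  rw [← Finset.sum_mul, ← map_sum]
  rfl

/-- first part of a tuple -/
def fst' {p q : ℕ} (K : Fin (p + q) → ι × Bool) : Fin p → ι × Bool := fun i => K (Fin.castAdd q i)

/-- second part of a tuple -/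
def snd' {p q : ℕ} (K : Fin (p + q) → ι × Bool) : Fin q → ι × Bool := fun i => K (Fin.natAdd p i)

theorem sum_split {M : Type*} [AddCommMonoid M] {p q : ℕ} (K : Fin (p + q) → ι × Bool)
    (f : ι × Bool → M) : ∑ i, f (K i) = ∑ i, f (fst' K i) + ∑ i, f (snd' K i) := by
  rw [Fin.sum_univ_add]
  rfl

theorem prod_split {M : Type*} [CommMonoid M] {p q : ℕ} (K : Fin (p + q) → ι × Bool)
    (f : ι × Bool → M) : ∏ i, f (K i) = (∏ i, f (fst' K i)) * ∏ i, f (snd' K i) := by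
  rw [Fin.prod_univ_add]
  rfl

theorem sum_eq_append [Fintype ι] {M : Type*} [AddCommMonoid M] {p q : ℕ}
    (f : (Fin p → ι × Bool) → (Fin q → ι × Bool) → M) :
    ∑ K : Fin (p + q) → ι × Bool, f (fst' K) (snd' K) = ∑ K, ∑ L, f K L := by
  classical
  rw [← Fintype.sum_prod_type', ← (Fin.appendEquiv p q).symm.sum_comp]
  rfl

/-- The tensor of a bracket. -/
noncomputable def brt [Fintype ι] {p q : ℕ} (a : (Fin (p + 1) → ι × Bool) → ℂ)
    (b : (Fin (q + 1) → ι × Bool) → ℂ) (K : Fin (p + q) → ι × Bool) : ℂ :=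
  ∑ n : ι, (da a (n, true) (fst' K) * da b (n, false) (snd' K) -
    da a (n, false) (fst' K) * da b (n, true) (snd' K))

theorem br_sum_mon [Fintype ι] {p q : ℕ} (a : (Fin (p + 1) → ι × Bool) → ℂ)
    (b : (Fin (q + 1) → ι × Bool) → ℂ) :
    br (∑ I, C (a I) * mon I : Pl ι) (∑ I, C (b I) * mon I) = ∑ K, C (brt a b K) * mon K := by
  classical
  unfold br
  have h1 : ∀ K : Fin (p + q) → ι × Bool, (C (brt a b K) * mon K : Pl ι) =
      ∑ n : ι, (C (da a (n, true) (fst' K)) * mon (fst' K) *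
        (C (da b (n, false) (snd' K)) * mon (snd' K)) -
        C (da a (n, false) (fst' K)) * mon (fst' K) *
        (C (da b (n, true) (snd' K)) * mon (snd' K))) := by
    intro K
    unfold brt
    have e : (mon K : Pl ι) = mon (fst' K) * mon (snd' K) := prod_split K _
    rw [map_sum, Finset.sum_mul]
    refine Finset.sum_congr rfl fun n _ => ?_
    rw [e, C_sub, C_mul, C_mul]
    ring
  rw [Finset.sum_congr rfl fun K _ => h1 K, Finset.sum_comm]
  refine Finset.sum_congr rfl fun n _ => ?_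
  rw [pderiv_sum_mon, pderiv_sum_mon, pderiv_sum_mon, pderiv_sum_mon]
  rw [sum_eq_append (fun (K : Fin p → ι × Bool) (L : Fin q → ι × Bool) =>
    (C (da a (n, true) K) * mon K * (C (da b (n, false) L) * mon L) -
        C (da a (n, false) K) * mon K * (C (da b (n, true) L) * mon L) : Pl ι))]
  simp only [Finset.sum_sub_distrib, Finset.sum_mul_sum]

/-! ## Bounds -/

theorem mom_ins {mo : ι → Lat d} {p : ℕ} (l : Fin (p + 1)) (v : ι × Bool) (K : Fin p → ι × Bool) :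
    mom mo (ins l v K) = sm mo v + mom mo K := sum_ins l v K _

theorem mom_split {mo : ι → Lat d} {p q : ℕ} (K : Fin (p + q) → ι × Bool) :
    mom mo K = mom mo (fst' K) + mom mo (snd' K) := sum_split K _

theorem da_ne {mo : ι → Lat d} {p : ℕ} {a : (Fin (p + 1) → ι × Bool) → ℂ}
    (ha : ∀ I, mom mo I ≠ 0 → a I = 0) {v : ι × Bool} {K : Fin p → ι × Bool} (h : da a v K ≠ 0) :
    sm mo v + mom mo K = 0 := by
  by_contra hne
  apply h
  unfold da
  refine Finset.sum_eq_zero fun l _ => ha _ ?_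
  rw [mom_ins]
  exact hne

theorem norm_sum_le_of_unique [Fintype ι] {x : ι → ℂ} {B : ℝ} (hB : 0 ≤ B) (h : ∀ n, ‖x n‖ ≤ B)
    (hu : ∀ n n', x n ≠ 0 → x n' ≠ 0 → n = n') : ‖∑ n, x n‖ ≤ B := by
  classical
  by_cases h0 : ∃ n, x n ≠ 0
  · obtain ⟨n, hn⟩ := h0
    rw [Finset.sum_eq_single n]
    · exact h n
    · intro m _ hm
      by_contra hne
      exact hm (hu m n hne hn)
    · intro h'
      exact absurd (Finset.mem_univ n) h'
  · push Not at h0
    rw [Finset.sum_eq_zero fun n _ => h0 n, norm_zero]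
    exact hB

/-- The tensor of a bracket: momentum. -/
theorem brt_mom [Fintype ι] {mo : ι → Lat d} {p q : ℕ} {a : (Fin (p + 1) → ι × Bool) → ℂ}
    {b : (Fin (q + 1) → ι × Bool) → ℂ} (ha : ∀ I, mom mo I ≠ 0 → a I = 0)
    (hb : ∀ I, mom mo I ≠ 0 → b I = 0) {K : Fin (p + q) → ι × Bool} (hK : mom mo K ≠ 0) :
    brt a b K = 0 := by
  unfold brt
  refine Finset.sum_eq_zero fun n _ => ?_
  have h1 : da a (n, true) (fst' K) * da b (n, false) (snd' K) = 0 := by
    by_contra h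
    have e1 := da_ne ha (left_ne_zero_of_mul h)
    have e2 := da_ne hb (right_ne_zero_of_mul h)
    apply hK
    rw [mom_split]
    simp only [sm, if_true, if_false, Bool.false_eq_true] at e1 e2
    calc mom mo (fst' K) + mom mo (snd' K)
        = (mo n + mom mo (fst' K)) + (-mo n + mom mo (snd' K)) := by abel
      _ = 0 := by rw [e1, e2, add_zero]
  have h2 : da a (n, false) (fst' K) * da b (n, true) (snd' K) = 0 := by
    by_contra h
    have e1 := da_ne ha (left_ne_zero_of_mul h)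
    have e2 := da_ne hb (right_ne_zero_of_mul h)
    apply hK
    rw [mom_split]
    simp only [sm, if_true, if_false, Bool.false_eq_true] at e1 e2
    calc mom mo (fst' K) + mom mo (snd' K)
        = (-mo n + mom mo (fst' K)) + (mo n + mom mo (snd' K)) := by abel
      _ = 0 := by rw [e1, e2, add_zero]
  rw [h1, h2, sub_zero]

/-- The tensor of a bracket: general bound. -/
theorem norm_brt_le [Fintype ι] {mo : ι → Lat d} (hmo : Function.Injective mo) {p q : ℕ}
    {a : (Fin (p + 1) → ι × Bool) → ℂ} {b : (Fin (q + 1) → ι × Bool) → ℂ}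
    (ha : ∀ I, mom mo I ≠ 0 → a I = 0) {K : Fin (p + q) → ι × Bool} {B : ℝ} (hB : 0 ≤ B)
    (h1 : ∀ n, ‖da a (n, true) (fst' K) * da b (n, false) (snd' K)‖ ≤ B)
    (h2 : ∀ n, ‖da a (n, false) (fst' K) * da b (n, true) (snd' K)‖ ≤ B) :
    ‖brt a b K‖ ≤ 2 * B := by
  unfold brt
  rw [Finset.sum_sub_distrib, two_mul]
  refine (norm_sub_le _ _).trans (add_le_add ?_ ?_)
  · refine norm_sum_le_of_unique hB h1 fun n n' hn hn' => hmo ?_
    have e1 := da_ne ha (left_ne_zero_of_mul hn)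
    have e2 := da_ne ha (left_ne_zero_of_mul hn')
    simp only [sm, if_true] at e1 e2
    exact add_right_cancel (e1.trans e2.symm)
  · refine norm_sum_le_of_unique hB h2 fun n n' hn hn' => hmo ?_
    have e1 := da_ne ha (left_ne_zero_of_mul hn)
    have e2 := da_ne ha (left_ne_zero_of_mul hn')
    simp only [sm, if_false, Bool.false_eq_true] at e1 e2
    exact neg_injective (add_right_cancel (e1.trans e2.symm))

theorem norm_da_le {p : ℕ} {a : (Fin (p + 1) → ι × Bool) → ℂ} {v : ι × Bool}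
    {K : Fin p → ι × Bool} {B : ℝ} (h : ∀ l, ‖a (ins l v K)‖ ≤ B) :
    ‖da a v K‖ ≤ (p + 1 : ℕ) * B := by
  unfold da
  refine (norm_sum_le _ _).trans ((Finset.sum_le_sum fun l _ => h l).trans ?_)
  rw [Finset.sum_const, Finset.card_univ, Fintype.card_fin, nsmul_eq_mul]

/-- **The bracket on the classes with trivial weight.** -/
theorem cls_br_D0 [Fintype ι] {mo : ι → Lat d} (hmo : Function.Injective mo) {p q : ℕ} {A F : ℝ}
    (hA : 0 ≤ A) (hF : 0 ≤ F) {P Q : Pl ι} (hP : Cls mo D0 (p + 1) A P)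
    (hQ : Cls mo D0 (q + 1) F Q) :
    Cls mo D0 (p + q) (2 * (p + 1 : ℕ) * (q + 1 : ℕ) * A * F) (br P Q) := by
  obtain ⟨a, a1, a2, rfl⟩ := hP
  obtain ⟨b, b1, b2, rfl⟩ := hQ
  refine ⟨brt a b, fun K => ?_, fun K hK => brt_mom a2 b2 hK, br_sum_mon a b⟩
  have ka : ∀ v (L : Fin p → ι × Bool), ‖da a v L‖ ≤ (p + 1 : ℕ) * A := fun v L =>
    norm_da_le fun l => by simpa [D0] using a1 (ins l v L)
  have kb : ∀ v (L : Fin q → ι × Bool), ‖da b v L‖ ≤ (q + 1 : ℕ) * F := fun v L =>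
    norm_da_le fun l => by simpa [D0] using b1 (ins l v L)
  have h0 : ∀ v w (L : Fin p → ι × Bool) (L' : Fin q → ι × Bool),
      ‖da a v L * da b w L'‖ ≤ (p + 1 : ℕ) * A * ((q + 1 : ℕ) * F) := fun v w L L' => by
    rw [norm_mul]
    exact mul_le_mul (ka _ _) (kb _ _) (norm_nonneg _) (by positivity)
  have := norm_brt_le hmo a2 (b := b) (K := K) (B := (p + 1 : ℕ) * A * ((q + 1 : ℕ) * F))
    (by positivity) (fun n => h0 _ _ _ _) (fun n => h0 _ _ _ _)
  refine this.trans (le_of_eq ?_)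
  simp only [D0]
  ring

theorem DW_ins (W pw : ι → ℝ) {q : ℕ} (l : Fin (q + 1)) (v : ι × Bool) (L : Fin q → ι × Bool) :
    DW W pw (q + 1) (ins l v L) = (W v.1 * ∏ i, W (L i).1) *
      (2 * pw v.1 * ∑ i, pw (L i).1 + ((∑ i, pw (L i).1) ^ 2 - ∑ i, pw (L i).1 ^ 2)) := by
  unfold DW
  rw [pairs_eq, prod_ins l v L (fun w => W w.1), sum_ins l v L (fun w => pw w.1),
    sum_ins l v L (fun w => pw w.1 ^ 2)]
  ring

theorem DW_split (W pw : ι → ℝ) {p q : ℕ} (K : Fin (p + q) → ι × Bool) :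
    DW W pw (p + q) K = ((∏ i, W (fst' K i).1) * ∏ i, W (snd' K i).1) *
      (2 * (∑ i, pw (fst' K i).1) * (∑ i, pw (snd' K i).1) +
        ((∑ i, pw (fst' K i).1) ^ 2 - ∑ i, pw (fst' K i).1 ^ 2) +
        ((∑ i, pw (snd' K i).1) ^ 2 - ∑ i, pw (snd' K i).1 ^ 2)) := by
  unfold DW
  rw [pairs_eq, prod_split K (fun w => W w.1), sum_split K (fun w => pw w.1),
    sum_split K (fun w => pw w.1 ^ 2)]
  ring

/-- The main inequality between the weights. -/
theorem DW_ins_le {mo : ι → Lat d} {W pw : ι → ℝ} {J : ℕ} {κ : ℝ} (hκ : 1 ≤ κ)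
    (hW : ∀ n, 1 ≤ W n) (hpw : ∀ n, 1 ≤ pw n)
    (hWm : ∀ (j : ℕ) (I : Fin (j + 1) → ι × Bool) (l : Fin (j + 1)), mom mo I = 0 →
      W (I l).1 ≤ ∏ i : Fin j, W (I (l.succAbove i)).1)
    (hpwm : ∀ (j : ℕ), j + 1 ≤ J → ∀ (I : Fin (j + 1) → ι × Bool) (l : Fin (j + 1)),
      mom mo I = 0 → ∃ i : Fin j, pw (I l).1 ≤ κ * pw (I (l.succAbove i)).1)
    {p q : ℕ} (hp : p + 1 ≤ J) (K : Fin (p + q) → ι × Bool) (v w : ι × Bool) (hvw : v.1 = w.1)
    (hv : sm mo v + mom mo (fst' K) = 0) (l : Fin (q + 1)) :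
    DW W pw (q + 1) (ins l w (snd' K)) ≤ κ * DW W pw (p + q) K := by
  have hm : mom mo (ins (0 : Fin (p + 1)) v (fst' K)) = 0 := by rw [mom_ins, hv]
  have h1 : W w.1 ≤ ∏ i, W (fst' K i).1 := by
    have := hWm p (ins (0 : Fin (p + 1)) v (fst' K)) 0 hm
    rw [ins_same] at this
    simp only [ins_succAbove] at this
    rwa [← hvw]
  have h2 : pw w.1 ≤ κ * ∑ i, pw (fst' K i).1 := by
    obtain ⟨i, hi⟩ := hpwm p hp (ins (0 : Fin (p + 1)) v (fst' K)) 0 hm
    rw [ins_same, ins_succAbove] at hi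
    rw [← hvw]
    refine hi.trans (mul_le_mul_of_nonneg_left ?_ (zero_le_one.trans hκ))
    exact Finset.single_le_sum (f := fun i => pw (fst' K i).1)
      (fun i _ => zero_le_one.trans (hpw _)) (Finset.mem_univ i)
  rw [DW_ins, DW_split]
  have hW0 : ∀ n, 0 ≤ W n := fun n => zero_le_one.trans (hW n)
  have hpw0 : ∀ n, 0 ≤ pw n := fun n => zero_le_one.trans (hpw n)
  have n1 : 0 ≤ ∏ i, W (snd' K i).1 := Finset.prod_nonneg fun i _ => hW0 _
  have n2 : 0 ≤ ∑ i, pw (snd' K i).1 := Finset.sum_nonneg fun i _ => hpw0 _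
  have n3 : 0 ≤ (∑ i, pw (fst' K i).1) ^ 2 - ∑ i, pw (fst' K i).1 ^ 2 := by
    rw [← pairs_eq (fun i => pw (fst' K i).1)]
    exact pairs_nonneg fun i => hpw0 _
  have n4 : 0 ≤ (∑ i, pw (snd' K i).1) ^ 2 - ∑ i, pw (snd' K i).1 ^ 2 := by
    rw [← pairs_eq (fun i => pw (snd' K i).1)]
    exact pairs_nonneg fun i => hpw0 _
  have n5 : 0 ≤ ∏ i, W (fst' K i).1 := Finset.prod_nonneg fun i _ => hW0 _
  set WK := ∏ i, W (fst' K i).1 with hWK
  set WL := ∏ i, W (snd' K i).1 with hWL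
  set SK := ∑ i, pw (fst' K i).1 with hSK
  set SL := ∑ i, pw (snd' K i).1 with hSL
  set PK := SK ^ 2 - ∑ i, pw (fst' K i).1 ^ 2 with hPK
  set PL := SL ^ 2 - ∑ i, pw (snd' K i).1 ^ 2 with hPL
  have m1 : W w.1 * WL ≤ WK * WL := mul_le_mul_of_nonneg_right h1 n1
  have m2 : 2 * pw w.1 * SL + PL ≤ κ * (2 * SK * SL + PK + PL) := by
    have e1 : pw w.1 * SL ≤ κ * SK * SL := mul_le_mul_of_nonneg_right h2 n2
    have e2 : PL ≤ κ * PL := le_mul_of_one_le_left n4 hκ
    have e3 : 0 ≤ κ * PK := mul_nonneg (zero_le_one.trans hκ) n3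
    nlinarith
  calc (W w.1 * WL) * (2 * pw w.1 * SL + PL)
      ≤ (WK * WL) * (κ * (2 * SK * SL + PK + PL)) :=
        mul_le_mul m1 m2 (add_nonneg (mul_nonneg (mul_nonneg zero_le_two (hpw0 _)) n2) n4)
          (mul_nonneg n5 n1)
    _ = κ * (WK * WL * (2 * SK * SL + PK + PL)) := by ring

/-- **The bracket on the weighted classes.** -/
theorem cls_br_DW [Fintype ι] {mo : ι → Lat d} (hmo : Function.Injective mo) {W pw : ι → ℝ} {J : ℕ}
    {κ : ℝ} (hκ : 1 ≤ κ) (hW : ∀ n, 1 ≤ W n) (hpw : ∀ n, 1 ≤ pw n)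
    (hWm : ∀ (j : ℕ) (I : Fin (j + 1) → ι × Bool) (l : Fin (j + 1)), mom mo I = 0 →
      W (I l).1 ≤ ∏ i : Fin j, W (I (l.succAbove i)).1)
    (hpwm : ∀ (j : ℕ), j + 1 ≤ J → ∀ (I : Fin (j + 1) → ι × Bool) (l : Fin (j + 1)),
      mom mo I = 0 → ∃ i : Fin j, pw (I l).1 ≤ κ * pw (I (l.succAbove i)).1)
    {p q : ℕ} (hp : p + 1 ≤ J) {A F : ℝ} (hA : 0 ≤ A) (hF : 0 ≤ F) {P Q : Pl ι}
    (hP : Cls mo D0 (p + 1) A P) (hQ : Cls mo (DW W pw) (q + 1) F Q) :
    Cls mo (DW W pw) (p + q) (2 * (p + 1 : ℕ) * (q + 1 : ℕ) * κ * A * F) (br P Q) := by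
  obtain ⟨a, a1, a2, rfl⟩ := hP
  obtain ⟨b, b1, b2, rfl⟩ := hQ
  refine ⟨brt a b, fun K => ?_, fun K hK => brt_mom a2 b2 hK, br_sum_mon a b⟩
  have hW0 : ∀ n, 0 ≤ W n := fun n => zero_le_one.trans (hW n)
  have hpw0 : ∀ n, 0 ≤ pw n := fun n => zero_le_one.trans (hpw n)
  have hκ0 : 0 ≤ κ := zero_le_one.trans hκ
  have hD : 0 ≤ DW W pw (p + q) K := DW_nonneg hW0 hpw0 _ _
  have hB : 0 ≤ (p + 1 : ℕ) * A * ((q + 1 : ℕ) * (F * (κ * DW W pw (p + q) K))) := by positivity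
  have ka : ∀ v (L : Fin p → ι × Bool), ‖da a v L‖ ≤ (p + 1 : ℕ) * A := fun v L =>
    norm_da_le fun l => by simpa [D0] using a1 (ins l v L)
  have h0 : ∀ v w : ι × Bool, v.1 = w.1 → ‖da a v (fst' K) * da b w (snd' K)‖ ≤
      (p + 1 : ℕ) * A * ((q + 1 : ℕ) * (F * (κ * DW W pw (p + q) K))) := by
    intro v w hvw
    by_cases hz : da a v (fst' K) = 0
    · rw [hz, zero_mul, norm_zero]
      exact hB
    · rw [norm_mul]
      refine mul_le_mul (ka _ _) ?_ (norm_nonneg _) (by positivity)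
      refine norm_da_le fun l => (b1 _).trans (mul_le_mul_of_nonneg_left ?_ hF)
      exact DW_ins_le hκ hW hpw hWm hpwm hp K v w hvw (da_ne a2 hz) l
  have := norm_brt_le hmo a2 (b := b) (K := K) hB (fun n => h0 (n, true) (n, false) rfl)
    (fun n => h0 (n, false) (n, true) rfl)
  refine this.trans (le_of_eq ?_)
  ring

theorem br_antisymm [Fintype ι] (P Q : Pl ι) : br P Q = -br Q P := by
  unfold br
  rw [← Finset.sum_neg_distrib]
  refine Finset.sum_congr rfl fun n _ => ?_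
  ring

end H628

end Vale.Agent.P139.BN
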