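import Vale.Agent.P139.R2.H556.Defs

/-!
# P139: algebra of the classes `Cls` (team P139-N, row R3)
-/

set_option autoImplicit false

open MvPolynomial Finset

namespace Vale.Agent.P139.BN

open Vale.Agent.P139.A Vale.Agent.P139.A.WA

namespace H628

variable {ι : Type} [Fintype ι] {d : ℕ} {mo : ι → Lat d} {D : WS ι} {j : ℕ}

theorem cls_zero : Cls mo D j 0 (0 : Pl ι) :=
  ⟨fun _ => 0, by simp, by simp, by simp⟩

theorem cls_mono (hD : ∀ I, 0 ≤ D j I) {F F' : ℝ} (h : F ≤ F') {P : Pl ι}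
    (hP : Cls mo D j F P) : Cls mo D j F' P := by
  obtain ⟨a, h1, h2, h3⟩ := hP
  exact ⟨a, fun I => (h1 I).trans (mul_le_mul_of_nonneg_right h (hD I)), h2, h3⟩

theorem cls_add {F G : ℝ} {P Q : Pl ι} (hP : Cls mo D j F P) (hQ : Cls mo D j G Q) :
    Cls mo D j (F + G) (P + Q) := by
  obtain ⟨a, h1, h2, h3⟩ := hP
  obtain ⟨b, k1, k2, k3⟩ := hQ
  refine ⟨fun I => a I + b I, fun I => ?_, fun I hI => ?_, ?_⟩
  · rw [add_mul]
    exact (norm_add_le _ _).trans (add_le_add (h1 I) (k1 I))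
  · show a I + b I = 0
    rw [h2 I hI, k2 I hI, add_zero]
  · rw [h3, k3, ← Finset.sum_add_distrib]
    refine Finset.sum_congr rfl fun I _ => ?_
    rw [C_add, add_mul]

theorem cls_cmul {F : ℝ} {P : Pl ι} (c : ℂ) (hP : Cls mo D j F P) :
    Cls mo D j (‖c‖ * F) (C c * P) := by
  obtain ⟨a, h1, h2, h3⟩ := hP
  refine ⟨fun I => c * a I, fun I => ?_, fun I hI => ?_, ?_⟩
  · rw [norm_mul, mul_assoc]
    exact mul_le_mul_of_nonneg_left (h1 I) (norm_nonneg _)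
  · show c * a I = 0
    rw [h2 I hI, mul_zero]
  · rw [h3, Finset.mul_sum]
    refine Finset.sum_congr rfl fun I _ => ?_
    rw [C_mul, mul_assoc]

omit [Fintype ι] in
theorem real_smul_eq (c : ℝ) (P : Pl ι) : c • P = C (c : ℂ) * P := by
  ext m
  rw [coeff_smul, coeff_C_mul, Complex.real_smul]

theorem cls_smul {F : ℝ} {P : Pl ι} (c : ℝ) (hP : Cls mo D j F P) :
    Cls mo D j (|c| * F) (c • P) := by
  have h := cls_cmul (c : ℂ) hP
  rwa [Complex.norm_real, Real.norm_eq_abs, ← real_smul_eq] at h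

theorem cls_neg {F : ℝ} {P : Pl ι} (hP : Cls mo D j F P) : Cls mo D j F (-P) := by
  have h := cls_cmul (-1 : ℂ) hP
  rw [norm_neg, norm_one, one_mul] at h
  have e : (C (-1 : ℂ) : Pl ι) * P = -P := by
    rw [C_neg, C_1, neg_one_mul]
  rwa [e] at h

theorem cls_sub {F G : ℝ} {P Q : Pl ι} (hP : Cls mo D j F P) (hQ : Cls mo D j G Q) :
    Cls mo D j (F + G) (P - Q) := by
  rw [sub_eq_add_neg]
  exact cls_add hP (cls_neg hQ)

theorem cls_sum {σ : Type*} (s : Finset σ) {F : σ → ℝ} {P : σ → Pl ι}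
    (h : ∀ k ∈ s, Cls mo D j (F k) (P k)) : Cls mo D j (∑ k ∈ s, F k) (∑ k ∈ s, P k) := by
  classical
  induction s using Finset.induction_on with
  | empty => simpa using (cls_zero : Cls mo D j 0 (0 : Pl ι))
  | insert a s ha ih =>
    rw [Finset.sum_insert ha, Finset.sum_insert ha]
    exact cls_add (h a (by simp)) (ih fun k hk => h k (by simp [hk]))

theorem cls_cast {F : ℝ} {P : Pl ι} {j' : ℕ} (e : j = j') (hP : Cls mo D j F P) :
    Cls mo D j' F P := e ▸ hP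

omit [Fintype ι] in
theorem D0_nonneg (j : ℕ) (I : Fin j → ι × Bool) : 0 ≤ (D0 : WS ι) j I := zero_le_one

/-! ## The sum over pairs -/

/-- `∑_{l ≠ l'} g l * g l'` -/
theorem pairs_eq {j : ℕ} (g : Fin j → ℝ) :
    ∑ l : Fin j, ∑ l' ∈ univ.erase l, g l * g l' = (∑ l, g l) ^ 2 - ∑ l, g l ^ 2 := by
  have h : ∀ l : Fin j, ∑ l' ∈ univ.erase l, g l * g l' = g l * ∑ l', g l' - g l ^ 2 := by
    intro l
    rw [Finset.mul_sum, ← Finset.add_sum_erase univ (fun l' => g l * g l') (Finset.mem_univ l)]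
    ring
  rw [Finset.sum_congr rfl fun l _ => h l, Finset.sum_sub_distrib, ← Finset.sum_mul, sq]

theorem pairs_nonneg {j : ℕ} {g : Fin j → ℝ} (hg : ∀ l, 0 ≤ g l) :
    0 ≤ ∑ l : Fin j, ∑ l' ∈ univ.erase l, g l * g l' :=
  Finset.sum_nonneg fun l _ => Finset.sum_nonneg fun l' _ => mul_nonneg (hg l) (hg l')

omit [Fintype ι] in
theorem DW_nonneg {W pw : ι → ℝ} (hW : ∀ n, 0 ≤ W n) (hpw : ∀ n, 0 ≤ pw n) (j : ℕ)
    (I : Fin j → ι × Bool) : 0 ≤ DW W pw j I :=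
  mul_nonneg (Finset.prod_nonneg fun _ _ => hW _) (pairs_nonneg fun _ => hpw _)

end H628

end Vale.Agent.P139.BN
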