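import Vale.Agent.P139.R2.H628.BrCls

/-!
# P139: the homological equation on the classes (team P139-N, row R3)
-/

set_option autoImplicit false

open MvPolynomial Finset

namespace Vale.Agent.P139.BN

open Vale.Agent.P139.A Vale.Agent.P139.A.WA

namespace H628

variable {ι : Type} {d : ℕ}

/-- The signed value. -/
def sg (a : ι → ℝ) (v : ι × Bool) : ℝ := if v.2 then a v.1 else -a v.1

theorem dv_eq (a : ι → ℝ) {j : ℕ} (I : Fin j → ι × Bool) : dv a I = ∑ l, sg a (I l) := rfl

theorem pderiv_quad_t [Fintype ι] (a : ι → ℝ) (n : ι) :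
    pderiv (n, true) (quad a) = C (a n : ℂ) * X (n, false) := by
  classical
  unfold quad
  rw [map_sum, Finset.sum_eq_single n]
  · rw [pderiv_C_mul, pderiv_mul, pderiv_X_self, pderiv_X_of_ne (by simp), one_mul, mul_zero,
      add_zero]
  · intro m _ hm
    rw [pderiv_C_mul, pderiv_mul, pderiv_X_of_ne (by simp [hm]), pderiv_X_of_ne (by simp), zero_mul,
      mul_zero, add_zero, mul_zero]
  · intro h
    exact absurd (Finset.mem_univ n) h

theorem pderiv_quad_f [Fintype ι] (a : ι → ℝ) (n : ι) :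
    pderiv (n, false) (quad a) = C (a n : ℂ) * X (n, true) := by
  classical
  unfold quad
  rw [map_sum, Finset.sum_eq_single n]
  · rw [pderiv_C_mul, pderiv_mul, pderiv_X_self, pderiv_X_of_ne (by simp), zero_mul, mul_one,
      zero_add]
  · intro m _ hm
    rw [pderiv_C_mul, pderiv_mul, pderiv_X_of_ne (by simp), pderiv_X_of_ne (by simp [hm]), zero_mul,
      mul_zero, add_zero, mul_zero]
  · intro h
    exact absurd (Finset.mem_univ n) h

/-- The bracket with a diagonal quadratic polynomial. -/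
theorem br_quad [Fintype ι] (a : ι → ℝ) (P : Pl ι) :
    br P (quad a) = ∑ v : ι × Bool, C (sg a v : ℂ) * (X v * pderiv v P) := by
  unfold br
  rw [Fintype.sum_prod_type]
  refine Finset.sum_congr rfl fun n _ => ?_
  rw [Fintype.sum_bool, pderiv_quad_t, pderiv_quad_f]
  simp only [sg, if_true, if_false, Bool.false_eq_true, Complex.ofReal_neg, C_neg]
  ring

theorem X_mul_mon {p : ℕ} (l : Fin (p + 1)) (I : Fin (p + 1) → ι × Bool) :
    (X (I l) * mon (fun i => I (l.succAbove i)) : Pl ι) = mon I := by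
  unfold mon
  rw [Fin.prod_univ_succAbove (fun i => (X (I i) : Pl ι)) l]

theorem br_mon_quad [Fintype ι] (a : ι → ℝ) {p : ℕ} (I : Fin (p + 1) → ι × Bool) :
    br (mon I) (quad a) = C (dv a I : ℂ) * mon I := by
  classical
  rw [br_quad]
  have h : ∀ v : ι × Bool, (C (sg a v : ℂ) * (X v * pderiv v (mon I)) : Pl ι) =
      ∑ l : Fin (p + 1), if I l = v then C (sg a v : ℂ) * mon I else 0 := by
    intro v
    rw [pderiv_mon, Finset.mul_sum, Finset.mul_sum]
    refine Finset.sum_congr rfl fun l _ => ?_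
    split_ifs with hl
    · rw [← hl, X_mul_mon]
    · rw [mul_zero, mul_zero]
  rw [Finset.sum_congr rfl fun v _ => h v, Finset.sum_comm]
  have h2 : ∀ l : Fin (p + 1), (∑ v : ι × Bool, if I l = v then (C (sg a v : ℂ) * mon I : Pl ι) else 0) =
      C (sg a (I l) : ℂ) * mon I := by
    intro l
    rw [Finset.sum_ite_eq, if_pos (Finset.mem_univ _)]
  rw [Finset.sum_congr rfl fun l _ => h2 l, ← Finset.sum_mul, ← map_sum, dv_eq, Complex.ofReal_sum]

theorem br_sum_left [Fintype ι] {σ : Type*} (s : Finset σ) (P : σ → Pl ι) (Q : Pl ι) :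
    br (∑ k ∈ s, P k) Q = ∑ k ∈ s, br (P k) Q := by
  unfold br
  simp only [map_sum, Finset.sum_mul]
  rw [Finset.sum_comm]
  refine Finset.sum_congr rfl fun n _ => ?_
  rw [Finset.sum_sub_distrib]

theorem br_C_mul_left [Fintype ι] (c : ℂ) (P Q : Pl ι) : br (C c * P) Q = C c * br P Q := by
  unfold br
  rw [Finset.mul_sum]
  refine Finset.sum_congr rfl fun n _ => ?_
  rw [pderiv_C_mul, pderiv_C_mul]
  ring

theorem br_sum_quad [Fintype ι] (a : ι → ℝ) {p : ℕ} (c : (Fin (p + 1) → ι × Bool) → ℂ) :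
    br (∑ I, C (c I) * mon I) (quad a) = ∑ I, C (c I * (dv a I : ℂ)) * mon I := by
  rw [br_sum_left]
  refine Finset.sum_congr rfl fun I _ => ?_
  rw [br_C_mul_left, br_mon_quad, C_mul, mul_assoc]

/-! ## Resonant tuples -/

theorem dv_eq_zero {lev : ι → ℕ} {a : ι → ℝ} (ha : ∀ n n', lev n = lev n' → a n = a n') {j : ℕ}
    {I : Fin j → ι × Bool} (hI : Reso lev I) : dv a I = 0 := by
  classical
  -- `a` is a function of the level
  obtain ⟨f, hf⟩ : ∃ f : ℕ → ℝ, ∀ n, a n = f (lev n) := by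
    refine ⟨fun μ => if h : ∃ n, lev n = μ then a h.choose else 0, fun n => ?_⟩
    have h : ∃ n', lev n' = lev n := ⟨n, rfl⟩
    show a n = if h : ∃ n', lev n' = lev n then a h.choose else 0
    rw [dif_pos h]
    exact ha _ _ h.choose_spec.symm
  set t : Finset ℕ := univ.image fun l => lev (I l).1 with ht
  have key : ∀ b : Bool, ∑ l ∈ univ.filter (fun l => (I l).2 = b), f (lev (I l).1) =
      ∑ μ ∈ t, ((univ.filter fun l => (I l).2 = b ∧ lev (I l).1 = μ).card : ℝ) * f μ := by
    intro b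
    rw [← Finset.sum_fiberwise_of_maps_to (s := univ.filter fun l => (I l).2 = b) (t := t)
      (g := fun l => lev (I l).1) (fun l _ => Finset.mem_image_of_mem _ (Finset.mem_univ l))]
    refine Finset.sum_congr rfl fun μ _ => ?_
    rw [Finset.filter_filter, ← nsmul_eq_mul, ← Finset.sum_const]
    refine Finset.sum_congr rfl fun l hl => ?_
    rw [(Finset.mem_filter.1 hl).2.2]
  have h1 : dv a I = ∑ l ∈ univ.filter (fun l => (I l).2 = true), f (lev (I l).1) -
      ∑ l ∈ univ.filter (fun l => (I l).2 = false), f (lev (I l).1) := by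
    unfold dv
    rw [Finset.sum_filter, Finset.sum_filter, ← Finset.sum_sub_distrib]
    refine Finset.sum_congr rfl fun l _ => ?_
    rw [hf]
    cases (I l).2 <;> simp
  rw [h1, key true, key false, ← Finset.sum_sub_distrib]
  refine Finset.sum_eq_zero fun μ _ => ?_
  rw [hI μ, sub_self]

/-! ## Tuples with three high modes -/

theorem one_le_prod_real {σ : Type*} (s : Finset σ) {f : σ → ℝ} (h : ∀ i ∈ s, 1 ≤ f i) :
    1 ≤ ∏ i ∈ s, f i :=
  Finset.prod_induction f (fun x => 1 ≤ x) (fun _ _ ha hb => one_le_mul_of_one_le_of_one_le ha hb)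
    le_rfl h

variable [Fintype ι] {J : ℕ} {κ γ : ℝ} {R : ℕ} {θ S : ℝ} {mo : ι → Lat d} {lev : ι → ℕ}
  {fr W pw : ι → ℝ}

theorem W_sq_le (hM : Modes ι d J κ γ R θ S mo lev fr W pw) {j : ℕ} {I : Fin j → ι × Bool}
    (hn : 3 ≤ nhi lev R I) (l : Fin j) : W (I l).1 ^ 2 ≤ θ * ∏ i, W (I i).1 := by
  classical
  have hθ := hM.θ_pos
  set T := univ.filter fun l => R ≤ lev (I l).1 with hT
  have h3 : 3 ≤ T.card := hn
  have h2 : 1 < (T.erase l).card := by
    have := Finset.pred_card_le_card_erase (s := T) (a := l)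
    omega
  obtain ⟨a, ha, b, hb, hab⟩ := Finset.one_lt_card.1 h2
  have hal : a ∈ univ.erase l := Finset.mem_erase.2 ⟨(Finset.mem_erase.1 ha).1, Finset.mem_univ _⟩
  have hbl : b ∈ (univ.erase l).erase a :=
    Finset.mem_erase.2 ⟨hab.symm, Finset.mem_erase.2 ⟨(Finset.mem_erase.1 hb).1, Finset.mem_univ _⟩⟩
  have hWa : W (I a).1 = θ⁻¹ :=
    hM.W_high _ (Finset.mem_filter.1 (Finset.mem_erase.1 ha).2).2
  have hWb : W (I b).1 = θ⁻¹ :=
    hM.W_high _ (Finset.mem_filter.1 (Finset.mem_erase.1 hb).2).2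
  have hWl : 1 ≤ W (I l).1 := hM.one_le_W _
  have hr : 1 ≤ ∏ i ∈ ((univ.erase l).erase a).erase b, W (I i).1 :=
    one_le_prod_real _ fun i _ => hM.one_le_W _
  rw [← Finset.mul_prod_erase univ (fun i => W (I i).1) (Finset.mem_univ l),
    ← Finset.mul_prod_erase (univ.erase l) (fun i => W (I i).1) hal,
    ← Finset.mul_prod_erase ((univ.erase l).erase a) (fun i => W (I i).1) hbl, hWa, hWb]
  have h5 : 0 ≤ W (I l).1 * θ⁻¹ := mul_nonneg (zero_le_one.trans hWl) (inv_nonneg.2 hθ.le)
  calc W (I l).1 ^ 2 = W (I l).1 * W (I l).1 := sq _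
    _ ≤ W (I l).1 * θ⁻¹ := mul_le_mul_of_nonneg_left (hM.W_le _) (zero_le_one.trans hWl)
    _ ≤ (W (I l).1 * θ⁻¹) * ∏ i ∈ ((univ.erase l).erase a).erase b, W (I i).1 :=
        le_mul_of_one_le_right h5 hr
    _ = θ * (W (I l).1 * (θ⁻¹ * (θ⁻¹ * ∏ i ∈ ((univ.erase l).erase a).erase b, W (I i).1))) := by
        field_simp

theorem abs_dv_le (hM : Modes ι d J κ γ R θ S mo lev fr W pw) {p : ℕ} (hp : p + 1 ≤ J)
    {I : Fin (p + 1) → ι × Bool} (hI : mom mo I = 0) (hn : 3 ≤ nhi lev R I) :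
    |dv (fun n => (W n * pw n) ^ 2) I| ≤ κ * θ * DW W pw (p + 1) I := by
  classical
  have hθ := hM.θ_pos
  have hW0 : ∀ n, 0 ≤ W n := fun n => zero_le_one.trans (hM.one_le_W n)
  have hpw0 : ∀ n, 0 ≤ pw n := fun n => zero_le_one.trans (hM.one_le_pw n)
  have hP : 0 ≤ ∏ i, W (I i).1 := Finset.prod_nonneg fun i _ => hW0 _
  unfold dv DW
  refine (Finset.abs_sum_le_sum_abs _ _).trans ?_
  rw [Finset.mul_sum, Finset.mul_sum]
  refine Finset.sum_le_sum fun l _ => ?_
  have e1 : |if (I l).2 = true then (W (I l).1 * pw (I l).1) ^ 2 else -(W (I l).1 * pw (I l).1) ^ 2| =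
      (W (I l).1 * pw (I l).1) ^ 2 := by
    split_ifs
    · exact abs_of_nonneg (sq_nonneg _)
    · rw [abs_neg]
      exact abs_of_nonneg (sq_nonneg _)
  rw [e1]
  obtain ⟨i, hi⟩ := hM.pw_mom p hp I l hI
  have hκ0 : 0 ≤ κ * pw (I (l.succAbove i)).1 := (hpw0 _).trans hi
  have h2 : pw (I l).1 * pw (I (l.succAbove i)).1 ≤
      ∑ l' ∈ univ.erase l, pw (I l).1 * pw (I l').1 :=
    Finset.single_le_sum (f := fun l' => pw (I l).1 * pw (I l').1)
      (fun l' _ => mul_nonneg (hpw0 _) (hpw0 _))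
      (Finset.mem_erase.2 ⟨Fin.succAbove_ne l i, Finset.mem_univ _⟩)
  have hκ : 0 ≤ κ := by
    have h1 := hM.one_le_pw (I (l.succAbove i)).1
    nlinarith
  calc (W (I l).1 * pw (I l).1) ^ 2 = W (I l).1 ^ 2 * (pw (I l).1 * pw (I l).1) := by ring
    _ ≤ (θ * ∏ i, W (I i).1) * (pw (I l).1 * (κ * pw (I (l.succAbove i)).1)) :=
        mul_le_mul (W_sq_le hM hn l) (mul_le_mul_of_nonneg_left hi (hpw0 _))
          (mul_nonneg (hpw0 _) (hpw0 _)) (mul_nonneg hθ.le hP)
    _ = κ * θ * ((∏ i, W (I i).1) * (pw (I l).1 * pw (I (l.succAbove i)).1)) := by ring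
    _ ≤ κ * θ * ((∏ i, W (I i).1) * ∑ l' ∈ univ.erase l, pw (I l).1 * pw (I l').1) :=
        mul_le_mul_of_nonneg_left (mul_le_mul_of_nonneg_left h2 hP) (mul_nonneg hκ hθ.le)

/-- **The homological equation.** -/
theorem hom (hM : Modes ι d J κ γ R θ S mo lev fr W pw) (hκ : 0 ≤ κ) (hγ : 0 < γ) {j : ℕ}
    (hj : 3 ≤ j) (hjJ : j ≤ J) {A : ℝ} (hA : 0 ≤ A) {P : Pl ι} (hP : Cls mo D0 j A P) :
    ∃ x z : Pl ι, P = br x (quad fr) + z ∧ Cls mo D0 j (A / γ) x ∧ Cls mo D0 j A z ∧
      Cls mo (DW W pw) j (κ * A * θ) (br z (quad fun n => (W n * pw n) ^ 2)) := by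
  classical
  obtain ⟨p, rfl⟩ : ∃ p, j = p + 1 := ⟨j - 1, by omega⟩
  obtain ⟨a, a1, a2, rfl⟩ := hP
  have a1' : ∀ I, ‖a I‖ ≤ A := fun I => by simpa [D0] using a1 I
  have hθ := hM.θ_pos
  have hW0 : ∀ n, 0 ≤ W n := fun n => zero_le_one.trans (hM.one_le_W n)
  have hpw0 : ∀ n, 0 ≤ pw n := fun n => zero_le_one.trans (hM.one_le_pw n)
  set good : (Fin (p + 1) → ι × Bool) → Prop := fun I => ¬ Reso lev I ∧ nhi lev R I ≤ 2 with hgood
  set x : (Fin (p + 1) → ι × Bool) → ℂ := fun I => if good I then a I / (dv fr I : ℂ) else 0 with hx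
  set z : (Fin (p + 1) → ι × Bool) → ℂ := fun I => if good I then 0 else a I with hz
  have hdv : ∀ I, good I → mom mo I = 0 → γ ≤ |dv fr I| := fun I hI hm =>
    hM.nonres (p + 1) hj hjJ I hm hI.2 hI.1
  refine ⟨∑ I, C (x I) * mon I, ∑ I, C (z I) * mon I, ?_, ⟨x, fun I => ?_, fun I hI => ?_, rfl⟩,
    ⟨z, fun I => ?_, fun I hI => ?_, rfl⟩, ?_⟩
  · rw [br_sum_quad, ← Finset.sum_add_distrib]
    refine Finset.sum_congr rfl fun I _ => ?_
    rw [← add_mul, ← C_add]
    have e : a I = x I * (dv fr I : ℂ) + z I := by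
      by_cases hg : good I
      · simp only [hx, hz, if_pos hg, add_zero]
        by_cases hm : mom mo I = 0
        · have h0 : (dv fr I : ℂ) ≠ 0 := by
            intro h
            have h1 := hdv I hg hm
            rw [Complex.ofReal_eq_zero.1 h, abs_zero] at h1
            exact absurd h1 (not_le.2 hγ)
          rw [div_mul_cancel₀ _ h0]
        · rw [a2 I hm, zero_div, zero_mul]
      · simp only [hx, hz, if_neg hg, zero_mul, zero_add]
    rw [← e]
  · simp only [D0, mul_one]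
    by_cases hg : good I
    · simp only [hx, if_pos hg]
      by_cases hm : mom mo I = 0
      · rw [norm_div, Complex.norm_real, Real.norm_eq_abs]
        exact div_le_div₀ hA (a1' I) hγ (hdv I hg hm)
      · rw [a2 I hm, zero_div, norm_zero]
        positivity
    · simp only [hx, if_neg hg, norm_zero]
      positivity
  · show (if good I then a I / (dv fr I : ℂ) else 0) = 0
    rw [a2 I hI, zero_div, ite_self]
  · simp only [D0, mul_one]
    by_cases hg : good I
    · simp only [hz, if_pos hg, norm_zero]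
      exact hA
    · simp only [hz, if_neg hg]
      exact a1' I
  · show (if good I then 0 else a I) = 0
    rw [a2 I hI, ite_self]
  · refine ⟨fun I => z I * (dv (fun n => (W n * pw n) ^ 2) I : ℂ), fun I => ?_, fun I hI => ?_,
      br_sum_quad _ _⟩
    · have hD : 0 ≤ DW W pw (p + 1) I := DW_nonneg hW0 hpw0 _ _
      have hR : 0 ≤ κ * A * θ * DW W pw (p + 1) I := by positivity
      by_cases hg : good I
      · simp only [hz, if_pos hg, zero_mul, norm_zero]
        exact hR
      · simp only [hz, if_neg hg]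
        by_cases hm : mom mo I = 0
        · by_cases hr : Reso lev I
          · rw [dv_eq_zero (lev := lev) (fun n n' h => by rw [hM.W_lev n n' h, hM.pw_lev n n' h]) hr,
              Complex.ofReal_zero, mul_zero, norm_zero]
            exact hR
          · have hn : 3 ≤ nhi lev R I := by
              by_contra hlt
              exact hg ⟨hr, by omega⟩
            rw [norm_mul, Complex.norm_real, Real.norm_eq_abs]
            calc ‖a I‖ * |dv (fun n => (W n * pw n) ^ 2) I|
                ≤ A * (κ * θ * DW W pw (p + 1) I) :=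
                  mul_le_mul (a1' I) (abs_dv_le hM hjJ hm hn) (abs_nonneg _) hA
              _ = κ * A * θ * DW W pw (p + 1) I := by ring
        · rw [a2 I hm, zero_mul, norm_zero]
          exact hR
    · show (if good I then 0 else a I) * _ = 0
      rw [a2 I hI, ite_self, zero_mul]

/-! ## The quadratic polynomial -/

/-- The weighted quadratic polynomial is in the weighted class. -/
theorem cls_quad (hW : ∀ n, 1 ≤ W n) (hpw : ∀ n, 1 ≤ pw n) :
    Cls mo (DW W pw) 2 1 (quad fun n => (W n * pw n) ^ 2) := by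
  classical
  set a : (Fin 2 → ι × Bool) → ℂ := fun I =>
    if (I 0).2 = true ∧ I 1 = ((I 0).1, false) then (((W (I 0).1 * pw (I 0).1) ^ 2 : ℝ) : ℂ) else 0
    with ha
  have hW0 : ∀ n, 0 ≤ W n := fun n => zero_le_one.trans (hW n)
  have hpw0 : ∀ n, 0 ≤ pw n := fun n => zero_le_one.trans (hpw n)
  refine ⟨a, fun I => ?_, fun I hI => ?_, ?_⟩
  · rw [one_mul]
    by_cases h : (I 0).2 = true ∧ I 1 = ((I 0).1, false)
    · simp only [ha, if_pos h]
      rw [Complex.norm_real, Real.norm_eq_abs, abs_of_nonneg (sq_nonneg _)]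
      unfold DW
      rw [pairs_eq]
      simp only [Fin.sum_univ_two, Fin.prod_univ_two, h.2]
      have := mul_nonneg (sq_nonneg (W (I 0).1)) (sq_nonneg (pw (I 0).1))
      nlinarith
    · simp only [ha, if_neg h, norm_zero]
      exact DW_nonneg hW0 hpw0 _ _
  · by_cases h : (I 0).2 = true ∧ I 1 = ((I 0).1, false)
    · exfalso
      apply hI
      unfold mom
      rw [Fin.sum_univ_two, h.2]
      simp only [sm, h.1, if_true, if_false, Bool.false_eq_true]
      exact add_neg_cancel _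
    · simp only [ha, if_neg h]
  · rw [← (finTwoArrowEquiv (ι × Bool)).symm.sum_comp, Fintype.sum_prod_type, Fintype.sum_prod_type]
    unfold quad
    refine Finset.sum_congr rfl fun n _ => ?_
    rw [Fintype.sum_bool]
    have e2 : ∑ w : ι × Bool, (C (a ((finTwoArrowEquiv (ι × Bool)).symm ((n, false), w))) *
        mon ((finTwoArrowEquiv (ι × Bool)).symm ((n, false), w)) : Pl ι) = 0 := by
      refine Finset.sum_eq_zero fun w _ => ?_
      simp [ha, finTwoArrowEquiv]
    rw [e2, add_zero, Finset.sum_eq_single (n, false)]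
    · simp [ha, finTwoArrowEquiv, mon, Fin.prod_univ_two]
    · intro w _ hw
      simp [ha, finTwoArrowEquiv, hw]
    · intro h
      exact absurd (Finset.mem_univ _) h

end H628

end Vale.Agent.P139.BN
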