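import Vale.Agent.P139.R2.H628.Hom
import Vale.Agent.P139.R2.H999.NFT
import Vale.Agent.P139.R2.H999.Cl

/-!
# P139: the class estimates in the form of row R4, and the normal form theorem (row R3 + R4)
-/

set_option autoImplicit false

open MvPolynomial Finset

namespace Vale.Agent.P139.BN

open Vale.Agent.P139.A Vale.Agent.P139.A.WA

/-- The class estimates. -/
theorem r3 (d : ℕ) : R3 d where
  zero _ _ _ := H628.cls_zero
  mono _ _ hD j _ _ _ h hP := H628.cls_mono (hD j) h hP
  add _ _ _ _ _ _ _ hP hQ := H628.cls_add hP hQ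
  smul _ _ _ _ c _ hP := H628.cls_smul c hP
  br0 mo hmo p q A F P Q hA hF hP hQ := by
    have h := H628.cls_br_D0 hmo hA hF hP hQ
    push_cast at h
    exact h
  brW J κ γ R θ S mo lev fr W pw hκ hM p q hp hq A F P Q hA hF hP hQ := by
    have h := H628.cls_br_DW hM.inj hκ hM.one_le_W hM.one_le_pw hM.W_mom hM.pw_mom hp hA hF hP hQ
    push_cast at h
    exact h
  hom J κ γ R θ S mo lev fr W pw hκ hγ hM j hj hjJ C hC P hP :=
    H628.hom hM (zero_le_one.trans hκ) hγ hj hjJ hC hP
  quadW _ _ _ hW hpw := H628.cls_quad hW hpw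
  quad_quad a b := quad_quad a b

/-- **The normal form theorem** (row R4). -/
theorem nfThm (d : ℕ) : NFThm d := nfThm_of (r3 d)

end Vale.Agent.P139.BN
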